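import Vale.Agent.P139.A0.W

/-! P139 part A0: the operators on `AA` (existence, a.e. formulas with respect to `volume`). -/

noncomputable section

open MeasureTheory Filter Topology Set Complex
open scoped ComplexConjugate RealInnerProductSpace

namespace Vale.Agent.P139

theorem a0ops_qsub (ξ : E12) :
    Measure.QuasiMeasurePreserving (fun ζ : E12 => ξ - ζ) volume volume := by
  have h := a0_qmp (r := -1) (by norm_num) ξ
  convert h using 2 with ζ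
  rw [neg_one_smul]; abel

theorem a0ops_qneg : Measure.QuasiMeasurePreserving (fun ζ : E12 => -ζ) volume volume := by
  simpa using a0ops_qsub 0

theorem a0ops_ex (f g : AA) : ∀ᵐ ξ : E12, Integrable fun ζ => f ζ * g (ξ - ζ) :=
  (a0_int f).ae_convolution_exists (L := ContinuousLinearMap.mul ℂ ℂ) (a0_int g)

theorem a0ops_bd (f g : AA) : ∀ᵐ ξ : E12, Wt ξ * ‖∫ ζ, f ζ * g (ξ - ζ)‖ ≤
    2 ^ 20 * ∫ ζ, (Wt ζ * ‖f ζ‖) * (Wt (ξ - ζ) * ‖g (ξ - ζ)‖) := by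
  have h := (a0_intW f).ae_convolution_exists (L := ContinuousLinearMap.mul ℝ ℝ) (a0_intW g)
  filter_upwards [h] with ξ h2
  have h2' : Integrable fun ζ => (Wt ζ * ‖f ζ‖) * (Wt (ξ - ζ) * ‖g (ξ - ζ)‖) := h2
  have hW := a0_Wt_pos ξ
  rw [← integral_const_mul, ← Real.norm_of_nonneg hW.le, ← Complex.norm_real, ← norm_mul,
    ← integral_const_mul]
  refine norm_integral_le_of_norm_le (h2'.const_mul _) (ae_of_all _ fun ζ => ?_)
  have h3 := Wt_add ζ (ξ - ζ)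
  rw [add_sub_cancel] at h3
  rw [norm_mul, norm_mul, Complex.norm_real, Real.norm_of_nonneg hW.le]
  have h4 : 0 ≤ ‖f ζ‖ * ‖g (ξ - ζ)‖ := by positivity
  calc _ ≤ 2 ^ 20 * (Wt ζ * Wt (ξ - ζ)) * (‖f ζ‖ * ‖g (ξ - ζ)‖) := by gcongr
    _ = _ := by ring

theorem a0ops_cmeas (f g : AA) :
    AEStronglyMeasurable (fun ξ : E12 => ∫ ζ, f ζ * g (ξ - ζ)) volume :=
  ((a0_int f).integrable_convolution (ContinuousLinearMap.mul ℂ ℂ) (a0_int g)).aestronglyMeasurable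

theorem a0ops_cintW (f g : AA) :
    Integrable fun ξ : E12 => ∫ ζ, (Wt ζ * ‖f ζ‖) * (Wt (ξ - ζ) * ‖g (ξ - ζ)‖) :=
  (a0_intW f).integrable_convolution (ContinuousLinearMap.mul ℝ ℝ) (a0_intW g)

theorem a0ops_cint (f g : AA) : Integrable fun ξ : E12 => Wt ξ * ‖∫ ζ, f ζ * g (ξ - ζ)‖ := by
  refine ((a0ops_cintW f g).const_mul (2 ^ 20)).mono'
    (a0_cont_Wt.aestronglyMeasurable.mul (a0ops_cmeas f g).norm) ?_
  filter_upwards [a0ops_bd f g] with ξ h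
  rwa [Real.norm_of_nonneg (mul_nonneg (a0_Wt_pos ξ).le (norm_nonneg _))]

theorem a0ops_cbd (f g : AA) :
    ∫ ξ : E12, Wt ξ * ‖∫ ζ, f ζ * g (ξ - ζ)‖ ≤ 2 ^ 20 * ‖f‖ * ‖g‖ := by
  refine (integral_mono_ae (a0ops_cint f g) ((a0ops_cintW f g).const_mul (2 ^ 20))
    (a0ops_bd f g)).trans (le_of_eq ?_)
  have h := integral_convolution (ContinuousLinearMap.mul ℝ ℝ) (a0_intW f) (a0_intW g)
  rw [integral_const_mul, AA_norm, AA_norm, mul_assoc]
  congr 1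

theorem a0ops_conv1 (f : AA) : ∃ T : AA →L[ℂ] AA, ∀ g : AA,
    T g =ᵐ[volume] fun ξ => ∫ ζ, f ζ * g (ξ - ζ) := by
  refine a0_clm (fun (g : AA) ξ => ∫ ζ, f ζ * g (ξ - ζ)) (2 ^ 20 * ‖f‖) (a0ops_cmeas f)
    (a0ops_cint f) (a0ops_cbd f) (fun g g' => ?_) (fun c g => ?_)
  · filter_upwards [a0ops_ex f g, a0ops_ex f g'] with ξ h1 h2
    rw [← integral_add h1 h2]
    refine integral_congr_ae ?_
    filter_upwards [(a0ops_qsub ξ).ae (a0_add_ae g g')] with ζ h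
    rw [h, mul_add]
  · refine ae_of_all _ fun ξ => ?_
    simp only [smul_eq_mul]
    rw [← integral_const_mul]
    refine integral_congr_ae ?_
    filter_upwards [(a0ops_qsub ξ).ae (a0_smul_ae c g)] with ζ h
    rw [h]; ring

theorem ex_conv : ∃ T : AA →L[ℂ] AA →L[ℂ] AA, ∀ f g : AA,
    T f g =ᵐ[volume] fun ξ => ∫ ζ, f ζ * g (ξ - ζ) := by
  choose T hT using a0ops_conv1
  have ha : ∀ f f', T (f + f') = T f + T f' := fun f f' => by
    refine ContinuousLinearMap.ext fun g => AA_ext ?_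
    rw [add_apply]
    filter_upwards [hT (f + f') g, hT f g, hT f' g, a0_add_ae (T f g) (T f' g), a0ops_ex f g,
      a0ops_ex f' g] with ξ h1 h2 h3 h4 h5 h6
    rw [h1, h4, h2, h3, ← integral_add h5 h6]
    refine integral_congr_ae ?_
    filter_upwards [a0_add_ae f f'] with ζ h
    rw [h, add_mul]
  have hs : ∀ (c : ℂ) f, T (c • f) = c • T f := fun c f => by
    refine ContinuousLinearMap.ext fun g => AA_ext ?_
    rw [smul_apply]
    filter_upwards [hT (c • f) g, hT f g, a0_smul_ae c (T f g)] with ξ h1 h2 h3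
    rw [h1, h3, h2, ← integral_const_mul]
    refine integral_congr_ae ?_
    filter_upwards [a0_smul_ae c f] with ζ h
    rw [h, mul_assoc]
  let L : AA →ₗ[ℂ] AA →L[ℂ] AA := { toFun := T, map_add' := ha, map_smul' := hs }
  refine ⟨L.mkContinuous (2 ^ 20) fun f => ?_, hT⟩
  refine ContinuousLinearMap.opNorm_le_bound _ (by positivity) fun g => ?_
  exact (a0_norm_ae (hT f g)).le.trans (a0ops_cbd f g)

theorem ex_cj : ∃ T : AA →L[ℝ] AA, ∀ g : AA, T g =ᵐ[volume] fun ξ => conj (g (-ξ)) := by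
  refine a0_clm (fun (g : AA) ξ => conj (g (-ξ))) 1 (fun g => ?_) (fun g => ?_) (fun g => ?_)
    (fun g g' => ?_) (fun c g => ?_)
  · exact Complex.continuous_conj.comp_aestronglyMeasurable
      ((a0_meas g).comp_quasiMeasurePreserving a0ops_qneg)
  · have h := (a0_intW g).comp_neg
    simpa [a0_Wt_neg] using h
  · have h := integral_neg_eq_self (fun ξ => Wt ξ * ‖g ξ‖) (volume : Measure E12)
    rw [one_mul, AA_norm, ← h]
    simp [a0_Wt_neg]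
  · filter_upwards [a0ops_qneg.ae (a0_add_ae g g')] with ξ h
    rw [h, map_add]
  · filter_upwards [a0ops_qneg.ae (a0_rsmul_ae c g)] with ξ h
    rw [h]; simp

theorem ex_tr (η : E12) : ∃ T : AA →L[ℂ] AA, ∀ g : AA, T g =ᵐ[volume] fun ξ => g (ξ - η) := by
  obtain ⟨T, hT⟩ := a0_aff (a := fun _ => 1) measurable_const (K := 1) (by simp) one_ne_zero (-η)
  exact ⟨T, fun g => by simpa [sub_eq_add_neg] using hT g⟩

theorem ex_Sg (ν : ℂ) (s : ℝ) : ∃ T : AA →L[ℂ] AA, ∀ g : AA, T g =ᵐ[volume] fun ξ =>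
    exp (-ν * s + 6 * s - I * ((Real.exp s - 1) * ‖ξ‖ ^ 2 : ℝ)) * g (Real.exp (s / 2) • ξ) := by
  obtain ⟨T, hT⟩ := a0_aff
    (a := fun ξ : E12 => exp (-ν * s + 6 * s - I * ((Real.exp s - 1) * ‖ξ‖ ^ 2 : ℝ)))
    (by fun_prop) (K := Real.exp (-ν * s + 6 * s).re)
    (fun ξ => by
      rw [Complex.norm_exp, Complex.sub_re, Complex.I_mul_re, Complex.ofReal_im]; simp)
    (Real.exp_pos (s / 2)).ne' 0
  exact ⟨T, fun g => by simpa only [add_zero] using hT g⟩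

theorem ex_Gp (ν : ℂ) (c0 c1 : ℝ) (x : E12) : ∃ T : AA →L[ℂ] AA, ∀ g : AA, T g =ᵐ[volume] fun ξ =>
    exp (I * c0 + ν * c1 - 6 * c1 + I * ⟪Real.exp (-c1 / 2) • ξ, x⟫) *
      g (Real.exp (-c1 / 2) • ξ) := by
  obtain ⟨T, hT⟩ := a0_aff
    (a := fun ξ : E12 => exp (I * c0 + ν * c1 - 6 * c1 + I * ⟪Real.exp (-c1 / 2) • ξ, x⟫))
    (by fun_prop) (K := Real.exp (I * c0 + ν * c1 - 6 * c1).re)
    (fun ξ => by
      rw [Complex.norm_exp, Complex.add_re, Complex.I_mul_re, Complex.ofReal_im]; simp)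
    (Real.exp_pos (-c1 / 2)).ne' 0
  exact ⟨T, fun g => by simpa only [add_zero] using hT g⟩

theorem ex_mulE (θ : E12 → ℝ) : ∃ T : AA →L[ℂ] AA, Measurable θ → ∀ g : AA,
    T g =ᵐ[volume] fun ξ => exp (I * θ ξ) * g ξ := by
  by_cases hθ : Measurable θ
  · obtain ⟨T, hT⟩ := a0_aff (a := fun ξ : E12 => exp (I * θ ξ)) (by fun_prop) (K := 1)
      (fun ξ => by rw [Complex.norm_exp, Complex.I_mul_re, Complex.ofReal_im]; simp) one_ne_zero 0
    exact ⟨T, fun _ g => by simpa only [add_zero, one_smul] using hT g⟩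
  · exact ⟨0, fun h => absurd h hθ⟩

/-- Unimodular Fourier multiplier. -/
def mulE (θ : E12 → ℝ) : AA →L[ℂ] AA := (ex_mulE θ).choose

theorem mulE_ae {θ : E12 → ℝ} (hθ : Measurable θ) (g : AA) :
    mulE θ g =ᵐ[volume] fun ξ => exp (I * θ ξ) * g ξ := (ex_mulE θ).choose_spec hθ g

/-- Product of functions. -/
def conv : AA →L[ℂ] AA →L[ℂ] AA := ex_conv.choose

/-- Complex conjugation of functions. -/
def cj : AA →L[ℝ] AA := ex_cj.choose

/-- Multiplication by `e^(i η y)`. -/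
def tr (η : E12) : AA →L[ℂ] AA := (ex_tr η).choose

/-- The free flow in similarity variables:
`w ↦ e^(-ν s) (e^(i (1 - e^(-s)) Δ) w) (e^(-s/2) y)`. -/
def Sg (ν : ℂ) (s : ℝ) : AA →L[ℂ] AA := (ex_Sg ν s).choose

/-- The symmetries `w ↦ e^(i c0 + ν c1) w (e^(c1/2) y + x)`. -/
def Gp (ν : ℂ) (c0 c1 : ℝ) (x : E12) : AA →L[ℂ] AA := (ex_Gp ν c0 c1 x).choose

theorem conv_ae (f g : AA) : conv f g =ᵐ[volume] fun ξ => ∫ ζ, f ζ * g (ξ - ζ) :=
  ex_conv.choose_spec f g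

theorem cj_ae (g : AA) : cj g =ᵐ[volume] fun ξ => conj (g (-ξ)) := ex_cj.choose_spec g

theorem tr_ae (η : E12) (g : AA) : tr η g =ᵐ[volume] fun ξ => g (ξ - η) := (ex_tr η).choose_spec g

theorem Sg_ae (ν : ℂ) (s : ℝ) (g : AA) : Sg ν s g =ᵐ[volume] fun ξ =>
    exp (-ν * s + 6 * s - I * ((Real.exp s - 1) * ‖ξ‖ ^ 2 : ℝ)) * g (Real.exp (s / 2) • ξ) :=
  (ex_Sg ν s).choose_spec g

theorem Gp_ae (ν : ℂ) (c0 c1 : ℝ) (x : E12) (g : AA) : Gp ν c0 c1 x g =ᵐ[volume] fun ξ =>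
    exp (I * c0 + ν * c1 - 6 * c1 + I * ⟪Real.exp (-c1 / 2) • ξ, x⟫) *
      g (Real.exp (-c1 / 2) • ξ) := (ex_Gp ν c0 c1 x).choose_spec g

/-- `|u|^(2m) u`. -/
def nlA : ℕ → AA → AA
  | 0, g => g
  | m + 1, g => conv (conv g (cj g)) (nlA m g)

/-- The Fourier densities of the profile, the potentials and the symmetry modes. -/
structure Hat {m : ℕ} (Q : Prof m) where
  q : AA
  V1 : AA
  V2 : AA
  eT : AA
  eD : Fin 12 → AA
  ev_q : ∀ y, ev q y = Q.q (XX y)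
  ev_V1 : ∀ y, ev V1 y = Q.V1 (XX y)
  ev_V2 : ∀ y, ev V2 y = Q.V2 (XX y)
  ev_eT : ∀ y, ev eT y = Q.eT (XX y)
  ev_eD : ∀ j y, ev (eD j) y = Q.eD j y

namespace Hat
variable {m : ℕ} {Q : Prof m} (H : Hat Q)

/-- The real linear potential term. -/
def B (z : AA) : AA := -I • (conv H.V1 z + conv H.V2 (cj z))

/-- The potential term applied to the plane wave `κ e^(i η y)`. -/
def b (η : E12) (κ : ℂ) : AA := -I • (κ • tr η H.V1 + conj κ • tr (-η) H.V2)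

/-- The amplitude of the freely evolved plane wave; its frequency is `e^(-s/2) η`. -/
def amp (η : E12) (κ : ℂ) (s : ℝ) : ℂ :=
  κ * exp (-nu0 m Q.β * s - I * ((1 - Real.exp (-s)) * ‖η‖ ^ 2 : ℝ))

/-- A real combination of the symmetry modes. -/
def mode (c0 c1 : ℝ) (x : E12) : AA := c0 • (I • H.q) + c1 • H.eT + ∑ j, x j • H.eD j

/-- The linear estimate: the linearised flow of the plane wave `κ e^(i η y)` is the free flow plus
`Z η κ s`, and `Z η κ N` is small modulo the symmetry modes. -/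
structure Lin (N C ε : ℝ) (Z : E12 → ℂ → ℝ → AA) : Prop where
  cont : Continuous fun p : E12 × ℂ × ℝ => Z p.1 p.2.1 p.2.2
  duh : ∀ η κ s, 0 ≤ s → Z η κ s = ∫ σ in (0 : ℝ)..s, Sg (nu0 m Q.β) (s - σ)
    (H.b (Real.exp (-σ / 2) • η) (amp (Q := Q) η κ σ) + H.B (Z η κ σ))
  hom : ∀ η κ s (t : ℝ), Z η (t * κ) s = t • Z η κ s
  bdd : ∀ η κ, ∀ s ∈ Icc 0 N, ‖Z η κ s‖ ≤ C * (‖κ‖ * Wt η)
  far : ∀ δ > 0, ∃ M, ∀ η κ, M ≤ ‖η‖ → ∀ s ∈ Icc 0 N, ‖Z η κ s‖ ≤ δ * (‖κ‖ * Wt η)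
  dec : ∀ η κ, ∃ (c0 c1 : ℝ) (x : E12), |c0| + |c1| + ‖x‖ ≤ C * (‖κ‖ * Wt η) ∧
    ‖Z η κ N - H.mode c0 c1 x‖ ≤ ε * (‖κ‖ * Wt η)

end Hat

end Vale.Agent.P139
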