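import Vale.Agent.P139.A2.Fin

/-! P139 part A2 (interface): the linear estimate implies stable blow-up, see PROOF.md. -/

noncomputable section

open MeasureTheory Filter Topology Set Complex
open scoped ComplexConjugate ContDiff RealInnerProductSpace

namespace Vale.Agent.P139

theorem blow_main {m : ℕ} {Q : Prof m} (H : Hat Q) (h : ∀ ε : ℝ, 0 < ε →
    ∃ (N C : ℝ) (Z : E12 → ℂ → ℝ → AA), 1 ≤ N ∧ Real.exp (-aa m * N) ≤ ε ∧ H.Lin N C ε Z) :
    Blow m := H.a2_blow h

end Vale.Agent.P139
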