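import Vale.Agent.P139.Ang.Main

/-! P139 part Ang (interface): reduction to radial equations, see PROOF.md. -/

noncomputable section

open MeasureTheory Filter Topology Set Complex
open scoped ComplexConjugate ContDiff RealInnerProductSpace

namespace Vale.Agent.P139

theorem ang_main {m : ℕ} (Q : Prof m) (h : Q.RMS) : Q.MS := ang_main_all Q h

end Vale.Agent.P139
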