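import Mathlib

/-! P139, the one dimensional world (see PROOF.md). Radial variable `X = |y|² / 4`, `d = 12`,
`p = 2 m + 1`, `a = 1 / (2 m)`. -/

noncomputable section

open MeasureTheory Filter Topology Set Complex
open scoped ComplexConjugate ContDiff

namespace Vale.Agent.P139

/-- `Λ = X ∂_X`. -/
def Lam (f : ℝ → ℂ) (X : ℝ) : ℂ := X * deriv f X

/-- The derivative with respect to `υ = 1 / X`. -/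
def Du (f : ℝ → ℂ) (X : ℝ) : ℂ := -(X : ℂ) ^ 2 * deriv f X

/-! ### The free admissible solution -/

/-- The admissible solution of `Λ² y - ℓ² y + i X (Λ y + ν y) = 0` (for `0 < ℓ + re ν`). -/
def yF (ν : ℂ) (ℓ X : ℝ) : ℂ :=
  ((X ^ ℓ : ℝ) : ℂ) * ∫ s in Ioi (0 : ℝ),
    exp (-(X * s : ℝ)) * (s : ℂ) ^ (ℓ + ν - 1) * (1 + I * s) ^ (ℓ - ν)

def NF (ν : ℂ) (ℓ X : ℝ) : ℂ := Lam (yF ν ℓ) X / yF ν ℓ X

def rowStep (ν : ℂ) (ℓ X : ℝ) (r : ℂ × ℂ) : ℂ × ℂ :=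
  (r.1 * ν + r.2 * ((ℓ : ℂ) ^ 2 - I * X * ν), r.1 + r.2 * (ν - I * X))

/-- `(y, Λ y)` at `X` is the datum of an admissible solution iff `row.1 y + row.2 Λ y = 0`. -/
def row (ν : ℂ) (ℓ X : ℝ) : ℂ × ℂ :=
  rowStep ν ℓ X (rowStep (ν + 1) ℓ X (rowStep (ν + 2) ℓ X (rowStep (ν + 3) ℓ X
    (-NF (ν + 4) ℓ X, 1))))

/-- The determinant of the limit eigenvalue problem; `ℓ = (l + 5) / 2`. -/
def Det (X β ℓ : ℝ) (lam : ℂ) : ℂ :=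
  ((row (lam - I * β - 5 / 2) ℓ X).1 + ℓ * (row (lam - I * β - 5 / 2) ℓ X).2) *
      conj (row (conj lam - I * β - 5 / 2) ℓ X).2 +
    (row (lam - I * β - 5 / 2) ℓ X).2 *
      conj ((row (conj lam - I * β - 5 / 2) ℓ X).1 + ℓ * (row (conj lam - I * β - 5 / 2) ℓ X).2)

/-- The mismatch of the limit profile problem. -/
def Mis (X β : ℝ) : ℂ :=
  (row (-I * β - 5 / 2) (5 / 2) X).1 + 5 / 2 * (row (-I * β - 5 / 2) (5 / 2) X).2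

def Xlo : ℝ := 2.70505
def Xhi : ℝ := 2.70509
def βlo : ℝ := 0.33476
def βhi : ℝ := 0.33480

def InBox (X β : ℝ) : Prop := X ∈ Icc Xlo Xhi ∧ β ∈ Icc βlo βhi

/-- The three symmetry eigenvalues. -/
def Sym (l : ℕ) (z : ℂ) : Prop := (l = 0 ∧ z = 0) ∨ (l = 0 ∧ z = 1) ∨ (l = 1 ∧ z = 1 / 2)

/-! ### Profiles -/

def aa (m : ℕ) : ℝ := 1 / (2 * m)

/-- `ν₀ = a - i β`. -/
def nu0 (m : ℕ) (β : ℝ) : ℂ := aa m - I * β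

/-- `G = X ^ ν₀ q`. -/
def Gt (m : ℕ) (β : ℝ) (q : ℝ → ℂ) (X : ℝ) : ℂ := (X : ℂ) ^ nu0 m β * q X

/-- A self-similar profile `Q(y) = q(|y|² / 4)`. -/
structure Prof (m : ℕ) where
  β : ℝ
  q : ℝ → ℂ
  m_pos : 1 ≤ m
  smooth : ∃ δ > 0, ContDiffOn ℝ ∞ q (Ioi (-δ))
  ode : ∀ X : ℝ, 0 ≤ X → X * deriv (deriv q) X + (6 + I * X) * deriv q X + (β + I * aa m) * q X =
    (normSq (q X) : ℂ) ^ m * q X
  ne : ∀ X : ℝ, 0 ≤ X → q X ≠ 0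
  jet : ∀ j, ∃ C, ∀ X : ℝ, 1 ≤ X → ‖Du^[j] (Gt m β q) X‖ ≤ C
  symb : ∀ j, ∃ C, ∀ X : ℝ, 1 ≤ X → ‖iteratedDeriv j q X‖ ≤ C * X ^ (-aa m - j)

namespace Prof
variable {m : ℕ} (Q : Prof m)

/-- `P = |q|^(2m)`. -/
def P (X : ℝ) : ℝ := normSq (Q.q X) ^ m

def V1 (X : ℝ) : ℂ := (m + 1) * (Q.P X : ℂ)

def V2 (X : ℝ) : ℂ := m * (normSq (Q.q X) : ℂ) ^ (m - 1) * Q.q X ^ 2

def G : ℝ → ℂ := Gt m Q.β Q.q

/-- `V1 = W1 / X`. -/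
def W1 (X : ℝ) : ℂ := (m + 1) * (normSq (Q.G X) : ℂ) ^ m

/-- `V2 = X ^ (2 i β) W2 / X`. -/
def W2 (X : ℝ) : ℂ := m * (normSq (Q.G X) : ℂ) ^ (m - 1) * Q.G X ^ 2

/-- Logarithmic derivative `q' / q = α + i φ'`. -/
def lg (X : ℝ) : ℂ := deriv Q.q X / Q.q X

/-- Phase mode. -/
def eP (X : ℝ) : ℂ := I * Q.q X

/-- Time translation mode. -/
def eT (X : ℝ) : ℂ := X * deriv Q.q X + nu0 m Q.β * Q.q X

/-- Radial part of the space translation modes. -/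
def eX (X : ℝ) : ℂ := (√X : ℝ) * deriv Q.q X

/-- The profile is close to the free boundary limit with free boundary at `X0`. -/
structure Good (X0 ε C : ℝ) : Prop where
  box : InBox X0 Q.β
  a_le : aa m ≤ ε
  near : ∀ X ∈ Icc 0 X0, |‖Q.q X‖ - 1| ≤ ε ∧ ‖Q.lg X‖ ≤ ε
  core : ∃ Xc ∈ Icc (X0 - ε) X0, ∀ X ∈ Icc 0 Xc, 1 / ε ≤ 2 * m * Q.P X
  mono : ∀ X ∈ Icc 0 X0, 2 * m * X * (Q.lg X).re ≤ ε
  pres : ∫ X in (0 : ℝ)..X0, |Q.P X - Q.β| ≤ ε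
  P_le : ∀ X, 0 ≤ X → Q.P X ≤ 1
  ext : ∀ j ≤ 4, ∀ X, X0 ≤ X → ‖Du^[j] Q.W1 X‖ ≤ ε ∧ ‖Du^[j] Q.W2 X‖ ≤ ε
  jets : ∀ j ≤ 4, ∀ X, X0 ≤ X → ‖Du^[j] Q.G X‖ ≤ C
  low : ∀ X, X0 ≤ X → 1 / C ≤ ‖Q.G X‖

/-- The symmetry modes with angular momentum `l`. -/
def InE (l : ℕ) (f g : ℝ → ℂ) : Prop :=
  ∃ c0 c1 c2 : ℂ, (l ≠ 0 → c0 = 0 ∧ c1 = 0) ∧ (l ≠ 1 → c2 = 0) ∧ ∀ X : ℝ, 0 < X →
    f X = c0 * Q.eP X + c1 * Q.eT X + c2 * Q.eX X ∧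
    g X = c0 * conj (Q.eP X) + c1 * conj (Q.eT X) + c2 * conj (Q.eX X)

/-- The radial linearised equation with angular momentum `l`, eigenvalue `lam` and source. -/
structure RSol (l : ℕ) (lam : ℂ) (f g ef eg : ℝ → ℂ) : Prop where
  sf : ContDiffOn ℝ 10 f (Ioi 0)
  sg : ContDiffOn ℝ 10 g (Ioi 0)
  odef : ∀ X : ℝ, 0 < X → X * deriv (deriv f) X + (6 + I * X) * deriv f X -
    l * (l + 10) / (4 * X) * f X + (Q.β + I * aa m + I * lam) * f X - Q.V1 X * f X -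
      Q.V2 X * g X = I * ef X
  odeg : ∀ X : ℝ, 0 < X → X * deriv (deriv g) X + (6 - I * X) * deriv g X -
    l * (l + 10) / (4 * X) * g X + (Q.β - I * aa m - I * lam) * g X - Q.V1 X * g X -
      conj (Q.V2 X) * f X = -I * eg X
  at0 : ∃ C, ∀ X ∈ Ioc (0 : ℝ) 1, ‖f X‖ ≤ C ∧ √X * ‖deriv f X‖ ≤ C ∧ ‖g X‖ ≤ C ∧
    √X * ‖deriv g X‖ ≤ C
  atInf : ∀ j ≤ 10, ∃ C, ∀ X : ℝ, 1 ≤ X → ‖iteratedDeriv j f X‖ ≤ C * X ^ (-(j : ℝ)) ∧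
    ‖iteratedDeriv j g X‖ ≤ C * X ^ (-(j : ℝ))

/-- Radial mode stability. -/
def RMS : Prop :=
  ∀ (l : ℕ) (lam : ℂ) (f g ef eg : ℝ → ℂ), 0 ≤ lam.re → Q.InE l ef eg →
    Q.RSol l lam f g ef eg → Q.InE l f g

end Prof

/-! ### Mode stability on `ℝ¹²` -/

abbrev E12 : Type := EuclideanSpace ℝ (Fin 12)

/-- `X = |y|² / 4`. -/
def XX (y : E12) : ℝ := ‖y‖ ^ 2 / 4

namespace Prof
variable {m : ℕ} (Q : Prof m)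

/-- `∂_j Q`. -/
def eD (j : Fin 12) (y : E12) : ℂ := (y j / 2 : ℝ) * deriv Q.q (XX y)

def InEE (f g : E12 → ℂ) : Prop :=
  ∃ (c0 c1 : ℂ) (c : Fin 12 → ℂ), ∀ y,
    f y = c0 * Q.eP (XX y) + c1 * Q.eT (XX y) + ∑ j, c j * Q.eD j y ∧
    g y = c0 * conj (Q.eP (XX y)) + c1 * conj (Q.eT (XX y)) + ∑ j, c j * conj (Q.eD j y)

def MS : Prop :=
  ∀ (lam : ℂ) (f g ef eg : E12 → ℂ), 0 ≤ lam.re → ContDiff ℝ 20 f → ContDiff ℝ 20 g →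
    (∀ j ≤ 20, ∃ C, ∀ y, ‖iteratedFDeriv ℝ j f y‖ ≤ C ∧ ‖iteratedFDeriv ℝ j g y‖ ≤ C) →
    Q.InEE ef eg →
    (∀ y, Laplacian.laplacian f y + I / 2 * fderiv ℝ f y y + (Q.β + I * aa m + I * lam) * f y -
      Q.V1 (XX y) * f y - Q.V2 (XX y) * g y = I * ef y) →
    (∀ y, Laplacian.laplacian g y - I / 2 * fderiv ℝ g y y + (Q.β - I * aa m - I * lam) * g y -
      Q.V1 (XX y) * g y - conj (Q.V2 (XX y)) * f y = -I * eg y) →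
    Q.InEE f g

end Prof

end Vale.Agent.P139
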