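import Mathlib

/-! P139: the objects of the statement. Functions on the torus `(ℝ / 2πℤ)^d` are represented by
their Fourier coefficients. -/

noncomputable section

open MeasureTheory ProbabilityTheory Filter Topology Set Complex
open scoped NNReal

namespace Vale.Agent.P139

variable {d : ℕ}

/-- `|n|²`. -/
def nsq (n : Fin d → ℤ) : ℝ := ∑ j, (n j : ℝ) ^ 2

/-- `n · x`. -/
def dotZ (n : Fin d → ℤ) (x : Fin d → ℝ) : ℝ := ∑ j, (n j : ℝ) * x j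

/-- The coefficients `c` belong to `H^k`. -/
def InH (k : ℕ) (c : (Fin d → ℤ) → ℂ) : Prop := Summable fun n => (1 + nsq n) ^ k * ‖c n‖ ^ 2

/-- The square of the `H^k` norm. -/
def hsq (k : ℕ) (c : (Fin d → ℤ) → ℂ) : ℝ := ∑' n, (1 + nsq n) ^ k * ‖c n‖ ^ 2

/-- The function with Fourier coefficients `c`. -/
def evT (c : (Fin d → ℤ) → ℂ) (x : Fin d → ℝ) : ℂ := ∑' n, c n * exp (I * dotZ n x)

/-- The Fourier coefficients of a `2π`-periodic function. -/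
def coef (f : (Fin d → ℝ) → ℂ) (n : Fin d → ℤ) : ℂ :=
  (((2 * Real.pi) ^ d)⁻¹ : ℝ) *
    ∫ x in Set.pi univ fun _ => Ioc (0 : ℝ) (2 * Real.pi), f x * exp (-I * dotZ n x)

/-- The Fourier coefficients of `|u|^(p-1) u`. -/
def nl (p : ℕ) (c : (Fin d → ℤ) → ℂ) : (Fin d → ℤ) → ℂ :=
  coef fun x => (‖evT c x‖ : ℂ) ^ (p - 1) * evT c x

/-- `u ∈ C([0,∞); H^k)` solves `i ∂ₜ u + Δ u = |u|^(p-1) u`, `u(0) = c₀` (Duhamel form). -/
def GlobalSol (p k : ℕ) (c₀ : (Fin d → ℤ) → ℂ) (u : ℝ → (Fin d → ℤ) → ℂ) : Prop :=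
  (∀ t, 0 ≤ t → InH k (u t)) ∧
  (∀ t, 0 ≤ t → Tendsto (fun s => hsq k (u s - u t)) (𝓝[Ici 0] t) (𝓝 0)) ∧
  ∀ t, 0 ≤ t → ∀ n, u t n = exp (-I * nsq n * t) * c₀ n -
    I * ∫ s in (0 : ℝ)..t, exp (-I * nsq n * (t - s)) * nl p (u s) n

/-- The datum `c₀` has a global solution in `H^k` for some integer `k > d / 2`. -/
def IsGlobal (p : ℕ) (c₀ : (Fin d → ℤ) → ℂ) : Prop :=
  ∃ k : ℕ, d < 2 * k ∧ ∃ u, GlobalSol p k c₀ u

/-- The centred complex Gaussian whose real and imaginary parts are independent of variance `v`;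
the standard complex Gaussian is `v = 1 / 2`. -/
def cGauss (v : ℝ≥0) : Measure ℂ :=
  ((gaussianReal 0 v).prod (gaussianReal 0 v)).map fun z => (z.1 : ℂ) + (z.2 : ℂ) * I

/-- The random datum `∑ gₙ ⟨n⟩^(-α) e^(i n x)`. -/
def datum (α : ℝ) (g : (Fin d → ℤ) → ℂ) (n : Fin d → ℤ) : ℂ :=
  g n * (((1 + nsq n) ^ (-α / 2) : ℝ) : ℂ)

/-- Almost sure global existence for the pair `(d, p)` and the exponent `α`. -/
def ASGlobal (d p : ℕ) (v : ℝ≥0) (α : ℝ) : Prop :=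
  ∀ (Ω : Type) [MeasurableSpace Ω] (P : Measure Ω) [IsProbabilityMeasure P]
    (g : (Fin d → ℤ) → Ω → ℂ), iIndepFun g P → (∀ n, HasLaw (g n) (cGauss v) P) →
      ∀ᵐ ω ∂P, IsGlobal p (datum α fun n => g n ω)

end Vale.Agent.P139
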