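import Vale.Agent.P139.Def
import Vale.Agent.P139.Stmt

/-! P139: weighted Wiener algebras on the torus and on `ℝ¹²` (see PROOF.md, part A). -/

noncomputable section

open MeasureTheory Filter Topology Set Complex
open scoped ComplexConjugate RealInnerProductSpace

namespace Vale.Agent.P139

abbrev Z12 : Type := Fin 12 → ℤ

def zE (n : Z12) : E12 := WithLp.toLp 2 fun j => (n j : ℝ)

/-- The weight. -/
def Wt (ξ : E12) : ℝ := 1 + ‖ξ‖ ^ 20

/-- Finite weighted norm. -/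
def SW (c : Z12 → ℂ) : Prop := Summable fun n => Wt (zE n) * ‖c n‖

/-- The weighted norm at mesh size `h`. -/
def wn (h : ℝ) (c : Z12 → ℂ) : ℝ := ∑' n, Wt (h • zE n) * ‖c n‖

/-- Convolution (product of functions). -/
def cv (c c' : Z12 → ℂ) (n : Z12) : ℂ := ∑' k, c k * c' (n - k)

/-- Complex conjugation of functions. -/
def st (c : Z12 → ℂ) (n : Z12) : ℂ := conj (c (-n))

/-- `|u|^(2m) u`. -/
def nlc : ℕ → (Z12 → ℂ) → Z12 → ℂ
  | 0, c => c
  | m + 1, c => cv (cv c (st c)) (nlc m c)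

/-- Global solutions in the weighted Wiener algebra of the torus. -/
structure TSol (m : ℕ) (v : ℝ → Z12 → ℂ) : Prop where
  bdd : ∀ T : ℝ, ∃ C, ∀ t ∈ Icc 0 T, SW (v t) ∧ wn 1 (v t) ≤ C
  cont : ∀ n, ContinuousOn (fun t => v t n) (Ici 0)
  duh : ∀ t : ℝ, 0 ≤ t → ∀ n, v t n = exp (-I * nsq n * t) * v 0 n -
    I * ∫ s in (0 : ℝ)..t, exp (-I * nsq n * (t - s)) * nlc m (v s) n

/-- An open set of data without global solution. -/
def Blow (m : ℕ) : Prop :=
  ∃ (c : Z12 → ℂ) (ε : ℝ), SW c ∧ 0 < ε ∧ ∀ v, TSol m v → ¬ wn 1 (v 0 - c) < ε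

def μW : Measure E12 := volume.withDensity fun ξ => ENNReal.ofReal (Wt ξ)

/-- Fourier densities with finite weighted norm. -/
abbrev AA : Type := E12 →₁[μW] ℂ

/-- The function with Fourier density `g`. -/
def ev (g : AA) (y : E12) : ℂ := ∫ ξ, g ξ * exp (I * ⟪ξ, y⟫)

/-- The centred cell of the lattice `h ℤ¹²`. -/
def cell (h : ℝ) (n : Z12) : Set E12 := {ξ | ∀ j, h * (n j - 1 / 2) ≤ ξ j ∧ ξ j < h * (n j + 1 / 2)}

/-- Discretisation. -/
def disc (h : ℝ) (g : AA) (n : Z12) : ℂ := ∫ ξ in cell h n, g ξ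

/-- Rounding to the lattice `h ℤ¹²` (the identity for `h = 0`). -/
def rnd (h : ℝ) (ξ : E12) : E12 :=
  if h = 0 then ξ else WithLp.toLp 2 fun j => h * (⌊ξ j / h + 1 / 2⌋ : ℝ)

end Vale.Agent.P139
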