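import Vale.Agent.P139.E.Prob

/-! P139 part E (interface): persistence of regularity and positive probability, see PROOF.md. -/

noncomputable section

open MeasureTheory Filter Topology Set Complex
open scoped ComplexConjugate ContDiff RealInnerProductSpace

namespace Vale.Agent.P139

open ProbabilityTheory
open scoped NNReal

theorem prob_main {m : ℕ} (h : Blow m) {v : ℝ≥0} (hv : v ≠ 0) {α : ℝ} (hα : 33 < α)
    (Ω : Type) [MeasurableSpace Ω] (P : Measure Ω) [IsProbabilityMeasure P]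
    (g : Z12 → Ω → ℂ) (hi : iIndepFun g P) (hl : ∀ n, HasLaw (g n) (cGauss v) P) :
    ¬ ∀ᵐ w ∂P, IsGlobal (2 * m + 1) (datum α fun n => g n w) := by
  obtain ⟨c, ε, hc, hε, hB⟩ := h
  intro hae
  have hp : ∀ n : Z12, 0 < 1 + nsq n := fun n => by linarith [e_nsq_nonneg n]
  have h0 : ∀ n, 0 ≤ Wt (zE n) := fun n => zero_le_one.trans (e_Wt_one _)
  have r0 : ∀ n : Z12, 0 < (1 + nsq n) ^ (-α / 2) := fun n => Real.rpow_pos_of_pos (hp n) _
  have key : ∀ (n : Z12) (z : ℂ), ENNReal.ofReal (Wt (zE n) * (1 + nsq n) ^ (-α / 2)) * ‖z‖ₑ =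
      ENNReal.ofReal (Wt (zE n) * ‖z * (((1 + nsq n) ^ (-α / 2) : ℝ) : ℂ)‖) := fun n z => by
    rw [← ofReal_norm, ← ENNReal.ofReal_mul (mul_nonneg (h0 n) (r0 n).le), norm_mul, norm_real,
      Real.norm_of_nonneg (r0 n).le]
    congr 1
    ring
  have kb : ∀ n : Z12, c n / (((1 + nsq n) ^ (-α / 2) : ℝ) : ℂ) *
      (((1 + nsq n) ^ (-α / 2) : ℝ) : ℂ) = c n := fun n =>
    div_mul_cancel₀ _ (ofReal_ne_zero.2 (r0 n).ne')
  have sa : Summable fun n : Z12 => Wt (zE n) * (1 + nsq n) ^ (-α / 2) := by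
    refine Summable.of_nonneg_of_le (fun n => mul_nonneg (h0 n) (r0 n).le) (fun n => ?_)
      ((e_sum_rpow (s := α / 2 - 10) (by linarith)).mul_left 2)
    rw [show -(α / 2 - 10) = (10 : ℕ) + -α / 2 by push_cast; ring, Real.rpow_add (hp n),
      Real.rpow_natCast, ← mul_assoc]
    exact mul_le_mul_of_nonneg_right (e_Wt_le n) (r0 n).le
  refine e_core P (cGauss v) g hi hl (e_gauss_int v) (e_gauss_ball hv)
    (fun n => ENNReal.ofReal (Wt (zE n) * (1 + nsq n) ^ (-α / 2))) sa.tsum_ofReal_ne_top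
    (fun n => c n / (((1 + nsq n) ^ (-α / 2) : ℝ) : ℂ)) ?_ (ENNReal.ofReal_pos.2 hε).ne' ?_
  · simp only [key, kb]
    exact hc.tsum_ofReal_ne_top
  · filter_upwards [hae] with w hw
    by_contra hlt
    simp only [key, sub_mul, kb, not_le] at hlt
    set d := datum α fun n => g n w with hd
    have n0 : ∀ (x : Z12 → ℂ) n, 0 ≤ Wt (zE n) * ‖x n‖ := fun x n =>
      mul_nonneg (h0 n) (norm_nonneg _)
    change ∑' n, ENNReal.ofReal (Wt (zE n) * ‖(d - c) n‖) < _ at hlt
    have s1 : SW (d - c) := by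
      have := ENNReal.summable_toReal hlt.ne_top
      simp only [ENNReal.toReal_ofReal (n0 _ _)] at this
      exact this
    have s2 : SW d := by
      refine Summable.of_nonneg_of_le (n0 d) (fun n => ?_) (Summable.add s1 hc)
      rw [← mul_add]
      exact mul_le_mul_of_nonneg_left (by simpa using norm_add_le (d n - c n) (c n)) (h0 n)
    obtain ⟨u, hu, hu0⟩ := e_persist s2 hw
    refine hB u hu ?_
    rw [← ENNReal.ofReal_tsum_of_nonneg (n0 _) s1, ENNReal.ofReal_lt_ofReal_iff hε] at hlt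
    simpa only [hu0, wn, one_smul] using hlt

theorem ex_family (v : ℝ≥0) : ∃ (Ω : Type) (_ : MeasurableSpace Ω) (P : Measure Ω)
    (_ : IsProbabilityMeasure P) (g : Z12 → Ω → ℂ), iIndepFun g P ∧
      ∀ n, HasLaw (g n) (cGauss v) P := by
  have := e_gauss_prob v
  obtain ⟨Ω, mΩ, P, g, -, h1, h2, h3⟩ := exists_iid Z12 (cGauss v)
  exact ⟨Ω, mΩ, P, h3, g, h2, h1⟩

end Vale.Agent.P139
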