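import Vale.Agent.P139.N.Big
import Vale.Agent.P139.N.RowLip

/-! P139 part N (interface): the free admissible solution, see PROOF.md. -/

noncomputable section

open MeasureTheory Filter Topology Set Complex
open scoped ComplexConjugate ContDiff

namespace Vale.Agent.P139

variable {ν : ℂ} {ℓ X : ℝ}

theorem yF_contDiff (h : 0 < ℓ + ν.re) : ContDiffOn ℝ ∞ (yF ν ℓ) (Ioi 0) :=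
  n_contDiff h

theorem yF_up (h : 0 < ℓ + ν.re) (hX : 0 < X) :
    Lam (yF ν ℓ) X + ν * yF ν ℓ X = -I * (ℓ - ν) * yF (ν + 1) ℓ X :=
  n_up h hX

theorem yF_down (h : 0 < ℓ + ν.re) (hX : 0 < X) :
    (ν - I * X) * yF (ν + 1) ℓ X - Lam (yF (ν + 1) ℓ) X = -I * (ν + ℓ) * yF ν ℓ X :=
  n_down h hX

theorem yF_ode (h : 0 < ℓ + ν.re) (hX : 0 < X) : Lam (Lam (yF ν ℓ)) X - ℓ ^ 2 * yF ν ℓ X +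
    I * X * (Lam (yF ν ℓ) X + ν * yF ν ℓ X) = 0 :=
  n_ode h hX

theorem yF_tendsto (h : 0 < ℓ + ν.re) :
    Tendsto (fun X : ℝ => (X : ℂ) ^ ν * yF ν ℓ X) atTop (𝓝 (Gamma (ℓ + ν))) :=
  n_tendsto h

theorem yF_continuous : ContinuousOn (fun p : ℂ × ℝ => yF p.1 ℓ p.2)
    {p | 0 < ℓ + p.1.re ∧ 0 < p.2} :=
  n_continuous

theorem yF_ne (hl : 0 ≤ ℓ) (h : 1 / 2 < ν.re) (hX : 0 < X) : yF ν ℓ X ≠ 0 :=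
  n_ne hl h hX

/-- Flux identity. -/
theorem yF_flux (hl : 0 ≤ ℓ) (h : 1 / 2 < ν.re) (hX : 0 < X) :
    IntegrableOn (fun Y => ‖yF ν ℓ Y‖ ^ 2) (Ioi X) ∧
      (ν.re - 1 / 2) * ∫ Y in Ioi X, ‖yF ν ℓ Y‖ ^ 2 =
        ((NF ν ℓ X).im + X / 2) * ‖yF ν ℓ X‖ ^ 2 :=
  n_flux hl h hX

theorem NF_im (hl : 0 ≤ ℓ) (h : 1 / 2 < ν.re) (hX : 0 < X) : -X / 2 ≤ (NF ν ℓ X).im :=
  n_im hl h hX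

theorem NF_H (hl : 0 ≤ ℓ) (h : 1 / 2 < ν.re) (hX : 0 < X) :
    ‖NF ν ℓ X‖ ^ 2 + 2 * (conj ν * NF ν ℓ X).re ≤ ℓ ^ 2 :=
  n_H hl h hX

theorem NF_re (hl : 0 ≤ ℓ) (h : 1 / 2 < ν.re) (hX : 0 < X) : (NF ν ℓ X).re ≤ 0 :=
  n_re hl h hX

/-- The continued fraction. -/
theorem NF_rec (hl : 0 ≤ ℓ) (h : 1 / 2 < ν.re) (hX : 0 < X) :
    ν - (NF (ν + 1) ℓ X + I * X) ≠ 0 ∧
      NF ν ℓ X = (ν * (NF (ν + 1) ℓ X + I * X) - ℓ ^ 2) / (ν - (NF (ν + 1) ℓ X + I * X)) :=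
  n_rec hl h hX

theorem NF_F (hl : 0 ≤ ℓ) (h : 1 ≤ ν.re) (hX : 0 < X) (h2 : X / 2 ≤ ν.im) :
    (NF ν ℓ X).re ≤ -√(ℓ ^ 2 + X * (ν.im - X / 2)) :=
  n_F hl h hX h2

theorem NF_lip {ν' : ℂ} {σ : ℝ} (hl : 0 ≤ ℓ) (hσ : 1 / 2 < σ) (h : σ ≤ ν.re) (h' : σ ≤ ν'.re)
    (hX : 0 < X) : ‖NF ν ℓ X - NF ν' ℓ X‖ ≤ ‖ν - ν'‖ *
      √(((NF ν ℓ X).im + X / 2) * ((NF ν' ℓ X).im + X / 2)) / (σ - 1 / 2) :=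
  n_lip hl hσ h h' hX

theorem NF_continuous (hl : 0 ≤ ℓ) : ContinuousOn (fun p : ℂ × ℝ => NF p.1 ℓ p.2)
    {p | 1 / 2 < p.1.re ∧ 0 < p.2} :=
  n_NF_cont hl

theorem row_continuous (hl : 0 ≤ ℓ) : ContinuousOn (fun p : ℂ × ℝ => row p.1 ℓ p.2)
    {p | -7 / 2 < p.1.re ∧ 0 < p.2} :=
  n_row_cont hl

/-- Locally Lipschitz in `ν`. -/
theorem row_lip (hl : 0 ≤ ℓ) (R : ℝ) : ∃ C, ∀ ν ν' : ℂ, -3 ≤ ν.re → -3 ≤ ν'.re → ‖ν‖ ≤ R →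
    ‖ν'‖ ≤ R → ∀ X ∈ Icc (2 : ℝ) 4, ‖row ν ℓ X - row ν' ℓ X‖ ≤ C * ‖ν - ν'‖ :=
  n_row_lip hl R

/-- Green identity on a finite interval for a solution with source. -/
theorem green {y s : ℝ → ℂ} {X0 X1 : ℝ} (h : 0 < ℓ + ν.re) (h0 : 0 < X0) (h1 : X0 ≤ X1)
    (hy : ContDiffOn ℝ 2 y (Ioi 0)) (hs : ContinuousOn s (Ioi 0))
    (he : ∀ X ∈ Icc X0 X1, Lam (Lam y) X - ℓ ^ 2 * y X + I * X * (Lam y X + ν * y X) = X * s X) :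
    (Lam y X1 * yF ν ℓ X1 - y X1 * Lam (yF ν ℓ) X1) * exp (I * X1) -
      (Lam y X0 * yF ν ℓ X0 - y X0 * Lam (yF ν ℓ) X0) * exp (I * X0) =
        ∫ X in X0..X1, s X * yF ν ℓ X * exp (I * X) :=
  n_green h h0 h1 hy hs he

/-- Morawetz estimate at high levels. -/
theorem NF_mor (σ1 : ℝ) {θ : ℝ} (hθ : 0 < θ) : ∃ C c : ℝ, 0 < c ∧ ∀ (ν : ℂ) (ℓ : ℝ), 1 ≤ ℓ →
    ν.re ∈ Icc (3 / 2) σ1 → ∀ X ∈ Icc (2 : ℝ) 4, ‖NF ν ℓ X‖ ≤ C * (ℓ + √|ν.im| + 1) ∧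
      (C ≤ -ν.im → (1 + θ) * ℓ ^ 2 ≤ X * -ν.im → c * √|ν.im| ≤ (NF ν ℓ X).im) :=
  n_mor σ1 hθ

/-- Large parameters: the level zero logarithmic derivative `-row.1 / row.2`. -/
theorem row_big (μ0 : ℝ) {θ : ℝ} (hθ : 0 < θ) : ∃ Λ C c : ℝ, 0 < c ∧ ∀ (ν : ℂ) (ℓ : ℝ), 1 ≤ ℓ →
    ν.re ∈ Icc (-5 / 2) μ0 → Λ ≤ ℓ + |ν.im| → ∀ X ∈ Icc (2 : ℝ) 4,
      c * (ℓ + |ν.im| + 1) ^ 4 ≤ ‖(row ν ℓ X).2‖ ∧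
      ‖(row ν ℓ X).1 / (row ν ℓ X).2‖ ≤ C * (ℓ + √|ν.im| + 1) ∧
      (-(row ν ℓ X).1 / (row ν ℓ X).2).re ≤ C ∧
      (θ * ℓ ^ 2 ≤ ν.im → (-(row ν ℓ X).1 / (row ν ℓ X).2).re ≤ -c * √|ν.im|) ∧
      ((1 + θ) * ℓ ^ 2 ≤ X * -ν.im → c * √|ν.im| ≤ (-(row ν ℓ X).1 / (row ν ℓ X).2).im) :=
  n_big μ0 hθ

end Vale.Agent.P139
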