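import Vale.Agent.P139.X.Hom
import Vale.Agent.P139.X.Gen
import Vale.Agent.P139.X.Decay

/-! P139 part X (interface): the exterior problem, see PROOF.md.
The definitions `dat`, `dotR`, `Prof.nu` are in X/Defs.lean. -/

noncomputable section

open MeasureTheory Filter Topology Set Complex
open scoped ComplexConjugate ContDiff

namespace Vale.Agent.P139

/-- Homogeneous solutions, uniformly in `l` and `im λ`. -/
theorem ext_hom (C μ0 : ℝ) : ∃ K ε0 : ℝ, 0 < ε0 ∧ ∀ (m : ℕ) (Q : Prof m) (X0 ε : ℝ), 0 < ε →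
    ε ≤ ε0 → Q.Good X0 ε C → ∀ (l : ℕ) (lam : ℂ) (f g : ℝ → ℂ), lam.re ∈ Icc 0 μ0 →
      Q.RSol l lam f g 0 0 → ∀ X ∈ Icc X0 (X0 + 1),
        ‖dotR (row (Q.nu lam) ((l + 5) / 2) X) (dat f X)‖ +
          ‖dotR (row (Q.nu (conj lam)) ((l + 5) / 2) X) (dat (fun Y => conj (g Y)) X)‖ ≤
        K * ε * (l + |lam.im| + 1) ^ 4 *
          ((l + √|lam.im| + 1) * (‖f X‖ + ‖g X‖) + (‖Lam f X‖ + ‖Lam g X‖)) :=
  Xp.x_ext_hom C μ0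

/-- Generalised eigenfunctions near a symmetry eigenvalue `z` with eigenfunction `(e, conj e)`. -/
theorem ext_gen (C : ℝ) : ∃ K ε0 : ℝ, 0 < ε0 ∧ ∀ (m : ℕ) (Q : Prof m) (X0 ε : ℝ), 0 < ε →
    ε ≤ ε0 → Q.Good X0 ε C → ∀ (l : ℕ) (z lam c : ℂ) (τ : ℝ) (e f g : ℝ → ℂ), Sym l z →
      0 ≤ lam.re → ‖lam - z‖ ≤ 1 / 8 → τ ∈ Icc 0 (1 / 8 : ℝ) →
      Q.RSol l z e (fun Y => conj (e Y)) 0 0 →
      Q.RSol l lam f g (fun Y => c * e Y) (fun Y => c * conj (e Y)) →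
        ‖dotR (row (Q.nu (z + τ)) ((l + 5) / 2) X0) ((τ : ℂ) • dat f X0 - c • dat e X0)‖ +
          ‖dotR (row (Q.nu (conj z + τ)) ((l + 5) / 2) X0)
            ((τ : ℂ) • dat (fun Y => conj (g Y)) X0 - conj c • dat e X0)‖ ≤
        K * (ε + τ * (‖lam - z‖ + τ)) *
          (‖dat f X0‖ + ‖dat (fun Y => conj (g Y)) X0‖ + ‖c‖ * ‖dat e X0‖) :=
  Xp.x_ext_gen C

/-- Decay of eigenfunctions with large real part (qualitative). -/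
theorem ext_decay {m : ℕ} {Q : Prof m} {l : ℕ} {lam : ℂ} {f g : ℝ → ℂ} (h : Q.RSol l lam f g 0 0)
    (h5 : 5 ≤ lam.re) : ∃ K, ∀ X : ℝ, 1 ≤ X →
      ‖f X‖ + ‖Lam f X‖ + ‖g X‖ + ‖Lam g X‖ ≤ K * X ^ (-4 : ℝ) :=
  Xp.x_ext_decay h h5

end Vale.Agent.P139
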